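import Vale.Agent.Lib.P064.Log.Const
import Vale.Agent.Lib.P064.Graph.Compare

/-!
# P064: `p_c(n,H) ≤ 760000 p_E(n,H) (log n)²` for every `H`
-/

namespace Vale.Agent.Results.P064.ALogSquared

open SimpleGraph Vale.Agent.Lib.P064 Vale.Agent.Lib.P064.Log

theorem result (n : ℕ) {V : Type} [Fintype V] (H : SimpleGraph V) (hV : Fintype.card V ≤ n)
    (hH : H ≠ ⊥) : pC n H ≤ 760000 * pE n H * Real.log n ^ 2 := by
  classical
  have hn : 2 ≤ n := two_le_of_ne_bot n hV H hH
  have h1 := pC_le_of_spread_const n H hV (logConst n) (logConst_pos n)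
    (fun p hp0 _ hyp hP => spread_log H n hn hV p (pos_of_hypE n p hp0 H hH hyp) hyp hP)
  have h2 := logConst_le n hn
  have h3 := log_card_edgeSet_le n H hV hH
  have hl2 : (0.6931471803 : ℝ) < Real.log 2 := Real.log_two_gt_d9
  have hlogn : 0 ≤ Real.log n := Real.log_natCast_nonneg n
  set k : ℝ := (Nat.log 2 (Nat.card H.edgeSet) : ℝ) + 1 with hk
  have hk0 : 0 ≤ k := by positivity
  have hk2 : k ≤ 2.8854 * Real.log n := by nlinarith
  have hpE := pE_nonneg n H
  calc pC n H ≤ 16 * logConst n * k * pE n H := h1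
    _ ≤ 16 * (16400 * Real.log n) * (2.8854 * Real.log n) * pE n H := by gcongr
    _ ≤ 760000 * pE n H * Real.log n ^ 2 := by
        have : 0 ≤ pE n H * Real.log n ^ 2 := by positivity
        nlinarith

end Vale.Agent.Results.P064.ALogSquared
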