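import Vale.Agent.Lib.P064.Log.Const
import Vale.Agent.Lib.P064.Graph.Compare

/-!
# P064: `p_c ≤ 760000 p_E (log n)²` written out without definitions of our own
-/

namespace Vale.Agent.Results.P064.ALogSquaredExplicit

open SimpleGraph Vale.Agent.Lib.P064 Vale.Agent.Lib.P064.Log

open Classical in
theorem result (n : ℕ) {V : Type} [Fintype V] (H : SimpleGraph V) (hV : Fintype.card V ≤ n)
    (hH : H ≠ ⊥) (p : ℝ) (hp0 : 0 ≤ p) (_hp1 : p ≤ 1)
    (hE : ∀ F : H.Subgraph, 1 / 2 ≤ ∑ G : SimpleGraph (Fin n),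
      p ^ Nat.card G.edgeSet * (1 - p) ^ (n.choose 2 - Nat.card G.edgeSet) *
        (G.copyCount F.coe : ℝ))
    (q : ℝ) (hq : 760000 * p * Real.log n ^ 2 ≤ q) (hq1 : q ≤ 1) :
    1 / 2 ≤ ∑ G : SimpleGraph (Fin n),
      if H ⊑ G then q ^ Nat.card G.edgeSet * (1 - q) ^ (n.choose 2 - Nat.card G.edgeSet)
      else 0 := by
  have hn : 2 ≤ n := two_le_of_ne_bot n hV H hH
  have hyp : HypE n p H := hypE_of_mem n p H hE
  have h2 := logConst_le n hn
  have h3 := log_card_edgeSet_le n H hV hH
  have hl2 : (0.6931471803 : ℝ) < Real.log 2 := Real.log_two_gt_d9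
  have hlogn : 0 ≤ Real.log n := Real.log_natCast_nonneg n
  set k : ℝ := (Nat.log 2 (Nat.card H.edgeSet) : ℝ) + 1 with hk
  have hk1 : 1 ≤ k := by
    have : (0 : ℝ) ≤ (Nat.log 2 (Nat.card H.edgeSet) : ℝ) := Nat.cast_nonneg _
    linarith
  have hk2 : k ≤ 2.8854 * Real.log n := by nlinarith
  have hC := logConst_pos n
  have hb : 16 * (logConst n * p) * k ≤ q := by
    calc 16 * (logConst n * p) * k
        ≤ 16 * ((16400 * Real.log n) * p) * (2.8854 * Real.log n) := by gcongr
      _ ≤ 760000 * p * Real.log n ^ 2 := by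
          have : 0 ≤ p * Real.log n ^ 2 := by positivity
          nlinarith
      _ ≤ q := hq
  have hP0 : 0 ≤ logConst n * p := mul_nonneg hC.le hp0
  have hP1 : logConst n * p ≤ 1 := by nlinarith
  have hS : Spread n (logConst n * p) H :=
    spread_log H n hn hV p (pos_of_hypE n p hp0 H hH hyp) hyp hP1
  have hf : PP.failProb q (copyFamily n H) ≤ 1 / 2 :=
    PP.park_pham (copyFamily n H) (Nat.card H.edgeSet)
      (fun S hS' => (card_of_mem_copyFamily n H S hS').le) (logConst n * p) hP0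
      (coverCost_copyFamily H n hV (logConst n * p) hP0 hP1 hS) q hq1 hb
  have he := probContains_eq n q H
  have : probContains n q H = ∑ G : SimpleGraph (Fin n),
      if H ⊑ G then q ^ Nat.card G.edgeSet * (1 - q) ^ (n.choose 2 - Nat.card G.edgeSet)
      else 0 := by
    unfold probContains gnpProb
    refine Finset.sum_congr rfl fun G _ => ?_
    simp only [copyCount_pos]
  rw [← this, he]
  linarith

end Vale.Agent.Results.P064.ALogSquaredExplicit
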