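import Vale.Agent.Lib.P064.Log.Const
import Vale.Agent.Lib.P064.Graph.Compare

/-!
# P064: `p̃_E(n,H) ≤ 16400 p_E(n,H) log n` for every `H`
-/

namespace Vale.Agent.Results.P064.BTildeLog

open SimpleGraph Vale.Agent.Lib.P064 Vale.Agent.Lib.P064.Log

theorem result (n : ℕ) {V : Type} [Fintype V] (H : SimpleGraph V) (hV : Fintype.card V ≤ n)
    (hH : H ≠ ⊥) : pETilde n H ≤ 16400 * Real.log n * pE n H := by
  have hn : 2 ≤ n := two_le_of_ne_bot n hV H hH
  have h1 := pETilde_le_of_spread n H hV (logConst n) (logConst_pos n)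
    (fun p hp0 _ hyp hP => spread_log H n hn hV p (pos_of_hypE n p hp0 H hH hyp) hyp hP)
  exact h1.trans (mul_le_mul_of_nonneg_right (logConst_le n hn) (pE_nonneg n H))

end Vale.Agent.Results.P064.BTildeLog
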