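import Vale.Agent.Lib.P064.Expect
import Vale.Agent.Lib.P064.Graph.Threshold

/-!
# P064: `p_c(n,H) ≤ 7500 Δ(H) p_E(n,H) log n`
-/

namespace Vale.Agent.Results.P064.CriticalMaxDegree

open SimpleGraph Vale.Agent.Lib.P064

theorem eight_exp_cube_le : 8 * Real.exp 1 ^ 3 ≤ 161 := by
  have h1 : Real.exp 1 ≤ 2.7182818286 := Real.exp_one_lt_d9.le
  have h2 : Real.exp 1 ^ 3 ≤ 2.7182818286 ^ 3 := pow_le_pow_left₀ (Real.exp_pos 1).le h1 3
  have h3 : (2.7182818286 : ℝ) ^ 3 ≤ 161 / 8 := by norm_num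
  linarith

variable {V : Type}

theorem hypE_of_mem [Fintype V] (n : ℕ) (p : ℝ) (H : SimpleGraph V)
    (h : ∀ F : H.Subgraph, 1 / 2 ≤ expCopies n p F.coe) : HypE n p H := by
  intro W' _ F' ⟨f⟩
  have h1 := h f.toSubgraph
  rw [expCopies_eq, ← copyCount_congr _ f.isoToSubgraph, ← card_edgeSet_congr f.isoToSubgraph] at h1
  exact h1

theorem copyCount_le_top [Fintype V] (n : ℕ) (hV : Fintype.card V ≤ n) (H : SimpleGraph V)
    {W : Type} [Finite W] (F : SimpleGraph W) :
    H.copyCount F ≤ (⊤ : SimpleGraph (Fin n)).copyCount F := by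
  obtain ⟨φ⟩ : Nonempty (V ↪ Fin n) :=
    Function.Embedding.nonempty_of_card_le (by simpa using hV)
  let g : Copy H (⊤ : SimpleGraph (Fin n)) :=
    ⟨⟨φ, fun {a b} h => by simpa using φ.injective.ne h.ne⟩, φ.injective⟩
  have h1 : Nat.card (Copy F H) ≤ Nat.card (Copy F (⊤ : SimpleGraph (Fin n))) := by
    refine Nat.card_le_card_of_injective (fun f => g.comp f) ?_
    intro f f' h
    ext a
    have := congrArg (fun k : Copy F (⊤ : SimpleGraph (Fin n)) => k a) h
    exact g.injective this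
  rw [card_copy_eq, card_copy_eq] at h1
  exact Nat.le_of_mul_le_mul_right h1 (card_aut_pos F)

theorem result (n : ℕ) {V : Type} [Fintype V] [DecidableEq V] (H : SimpleGraph V)
    [DecidableRel H.Adj] (hV : Fintype.card V ≤ n) (hH : H ≠ ⊥) :
    pC n H ≤ 7500 * (H.maxDegree : ℝ) * pE n H * Real.log n := by
  have hΔ1 : 1 ≤ H.maxDegree := by
    obtain ⟨u, v, huv⟩ : ∃ u v, H.Adj u v := by
      by_contra hcon
      push Not at hcon
      apply hH
      ext a b
      simp [hcon a b]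
    have h1 : 0 < H.degree u := (H.degree_pos_iff_exists_adj u).mpr ⟨v, huv⟩
    exact h1.trans_le (H.degree_le_maxDegree u)
  set k : ℝ := (Nat.log 2 (Nat.card H.edgeSet) : ℝ) + 1 with hk
  have hk1 : 1 ≤ k := by
    have : (0 : ℝ) ≤ (Nat.log 2 (Nat.card H.edgeSet) : ℝ) := Nat.cast_nonneg _
    linarith
  have hklog : k * Real.log 2 ≤ 2 * Real.log n := log_card_edgeSet_le n H hV hH
  set C : ℝ := 8 * Real.exp 1 ^ 3 * H.maxDegree with hC
  have hΔpos : (0 : ℝ) < H.maxDegree := by exact_mod_cast hΔ1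
  have hCpos : 0 < C := by positivity
  set A : Set ℝ := {p : ℝ | 0 ≤ p ∧ p ≤ 1 ∧ ∀ F : H.Subgraph, 1 / 2 ≤ expCopies n p F.coe} with hA
  have hAne : A.Nonempty := by
    refine ⟨1, zero_le_one, le_rfl, fun F => ?_⟩
    rw [expCopies_eq, one_pow, mul_one]
    have h1 : 0 < H.copyCount F.coe := copyCount_pos.mpr F.coe_isContained
    have h2 := copyCount_le_top n hV H F.coe
    have h3 : (1 : ℝ) ≤ ((⊤ : SimpleGraph (Fin n)).copyCount F.coe : ℝ) := by
      exact_mod_cast h1.trans_le h2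
    linarith
  have hkey : ∀ p ∈ A, pC n H ≤ 16 * C * k * p := by
    intro p hp
    have h1 := pC_le_of_spread n H hV (C * p) (mul_nonneg hCpos.le hp.1) (fun hP =>
      spread_of_hypE H H.maxDegree hΔ1 (fun u => H.degree_le_maxDegree u) n hV p hp.1 hp.2.1
        (hypE_of_mem n p H hp.2.2) hP)
    calc pC n H ≤ _ := h1
      _ = 16 * C * k * p := by rw [← hk]; ring
  have hD : 0 < 16 * C * k := by positivity
  have h1 : pC n H / (16 * C * k) ≤ sInf A := by
    refine le_csInf hAne fun p hp => ?_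
    rw [div_le_iff₀ hD, mul_comm]
    exact hkey p hp
  have h2 : 0 ≤ sInf A := Real.sInf_nonneg fun p hp => hp.1
  have h3 : pC n H ≤ 16 * C * k * sInf A := by
    rw [div_le_iff₀ hD] at h1
    linarith
  have hl2 : (0.6931471803 : ℝ) < Real.log 2 := Real.log_two_gt_d9
  have hlogn : 0 ≤ Real.log n := Real.log_natCast_nonneg n
  have hk2 : k ≤ 2.8854 * Real.log n := by nlinarith
  have hC2 : C ≤ 161 * H.maxDegree := by
    rw [hC]
    exact mul_le_mul_of_nonneg_right eight_exp_cube_le hΔpos.le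
  show pC n H ≤ 7500 * (H.maxDegree : ℝ) * sInf A * Real.log n
  calc pC n H ≤ 16 * C * k * sInf A := h3
    _ ≤ 16 * (161 * H.maxDegree) * (2.8854 * Real.log n) * sInf A := by gcongr
    _ ≤ 7500 * (H.maxDegree : ℝ) * sInf A * Real.log n := by
        have : 0 ≤ (H.maxDegree : ℝ) * sInf A * Real.log n := by positivity
        nlinarith

end Vale.Agent.Results.P064.CriticalMaxDegree
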