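import Vale.Agent.Lib.P064.Main
import Vale.Agent.Lib.P064.Expect

/-!
# P064: `p̃_E(n,H) ≤ 161 Δ(H) p_E(n,H)`
-/

namespace Vale.Agent.Results.P064.MaxDegree

open SimpleGraph Vale.Agent.Lib.P064

theorem eight_exp_cube_le : 8 * Real.exp 1 ^ 3 ≤ 161 := by
  have h1 : Real.exp 1 ≤ 2.7182818286 := Real.exp_one_lt_d9.le
  have h2 : Real.exp 1 ^ 3 ≤ 2.7182818286 ^ 3 := pow_le_pow_left₀ (Real.exp_pos 1).le h1 3
  have h3 : (2.7182818286 : ℝ) ^ 3 ≤ 161 / 8 := by norm_num
  linarith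

variable {V : Type}

theorem hypE_of_mem [Fintype V] (n : ℕ) (p : ℝ) (H : SimpleGraph V)
    (h : ∀ F : H.Subgraph, 1 / 2 ≤ expCopies n p F.coe) : HypE n p H := by
  intro W' _ F' ⟨f⟩
  have h1 := h f.toSubgraph
  rw [expCopies_eq, ← copyCount_congr _ f.isoToSubgraph, ← card_edgeSet_congr f.isoToSubgraph] at h1
  exact h1

theorem card_verts_le [Fintype V] (H : SimpleGraph V) (F : H.Subgraph) :
    Nat.card F.verts ≤ Fintype.card V := by
  rw [← Nat.card_eq_fintype_card]
  exact Nat.card_le_card_of_injective _ Subtype.val_injective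

theorem copyCount_le_top [Fintype V] (n : ℕ) (hV : Fintype.card V ≤ n) (H : SimpleGraph V)
    {W : Type} [Finite W] (F : SimpleGraph W) :
    H.copyCount F ≤ (⊤ : SimpleGraph (Fin n)).copyCount F := by
  obtain ⟨φ⟩ : Nonempty (V ↪ Fin n) :=
    Function.Embedding.nonempty_of_card_le (by simpa using hV)
  let g : Copy H (⊤ : SimpleGraph (Fin n)) :=
    ⟨⟨φ, fun {a b} h => by simpa using φ.injective.ne h.ne⟩, φ.injective⟩
  have h1 : Nat.card (Copy F H) ≤ Nat.card (Copy F (⊤ : SimpleGraph (Fin n))) := by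
    refine Nat.card_le_card_of_injective (fun f => g.comp f) ?_
    intro f f' h
    ext a
    have := congrArg (fun k : Copy F (⊤ : SimpleGraph (Fin n)) => k a) h
    exact g.injective this
  rw [card_copy_eq, card_copy_eq] at h1
  exact Nat.le_of_mul_le_mul_right h1 (card_aut_pos F)

/-- the counting inequality behind the theorem -/
theorem tilde_of_hyp [Fintype V] [DecidableEq V] (n : ℕ) (H : SimpleGraph V) [DecidableRel H.Adj]
    (hV : Fintype.card V ≤ n) (hΔ1 : 1 ≤ H.maxDegree) (p : ℝ) (hp0 : 0 ≤ p) (hp1 : p ≤ 1)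
    (h : ∀ F : H.Subgraph, 1 / 2 ≤ expCopies n p F.coe) (F : H.Subgraph) :
    (H.copyCount F.coe : ℝ) ≤ expCopies n (min 1 (8 * Real.exp 1 ^ 3 * H.maxDegree * p)) F.coe := by
  rw [expCopies_eq]
  rcases le_total (8 * Real.exp 1 ^ 3 * H.maxDegree * p) 1 with hP | hP
  · rw [min_eq_right hP]
    have h1 := card_copy_le_main H H.maxDegree hΔ1 (fun u => H.degree_le_maxDegree u) n hV p hp0 hp1
      (hypE_of_mem n p H h) hP F.coe ((card_verts_le H F).trans hV)
    have h2 := card_copy_eq H F.coe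
    have h3 := card_copy_eq (⊤ : SimpleGraph (Fin n)) F.coe
    rw [card_copy_top] at h3
    rw [h2, h3] at h1
    have hA : (0 : ℝ) < (Nat.card (F.coe ≃g F.coe) : ℝ) := by exact_mod_cast card_aut_pos F.coe
    push_cast at h1
    have h4 : (H.copyCount F.coe : ℝ) * (Nat.card (F.coe ≃g F.coe) : ℝ) ≤
        (((⊤ : SimpleGraph (Fin n)).copyCount F.coe : ℝ) *
          (8 * Real.exp 1 ^ 3 * H.maxDegree * p) ^ Nat.card F.coe.edgeSet) *
            (Nat.card (F.coe ≃g F.coe) : ℝ) := by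
      calc _ ≤ _ := h1
        _ = _ := by ring
    exact le_of_mul_le_mul_right h4 hA
  · rw [min_eq_left hP, one_pow, mul_one]
    exact_mod_cast copyCount_le_top n hV H F.coe

theorem result (n : ℕ) {V : Type} [Fintype V] [DecidableEq V] (H : SimpleGraph V)
    [DecidableRel H.Adj] (hV : Fintype.card V ≤ n) (hH : H ≠ ⊥) :
    pETilde n H ≤ 161 * (H.maxDegree : ℝ) * pE n H := by
  have hΔ1 : 1 ≤ H.maxDegree := by
    obtain ⟨u, v, huv⟩ : ∃ u v, H.Adj u v := by
      by_contra hcon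
      push Not at hcon
      apply hH
      ext a b
      simp [hcon a b]
    have h1 : 0 < H.degree u := (H.degree_pos_iff_exists_adj u).mpr ⟨v, huv⟩
    exact h1.trans_le (H.degree_le_maxDegree u)
  set C : ℝ := 8 * Real.exp 1 ^ 3 * H.maxDegree with hC
  have hΔpos : (0 : ℝ) < H.maxDegree := by exact_mod_cast hΔ1
  have hCpos : 0 < C := by positivity
  set A : Set ℝ := {p : ℝ | 0 ≤ p ∧ p ≤ 1 ∧ ∀ F : H.Subgraph, 1 / 2 ≤ expCopies n p F.coe} with hA
  set B : Set ℝ := {p : ℝ | 0 ≤ p ∧ p ≤ 1 ∧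
    ∀ F : H.Subgraph, (H.copyCount F.coe : ℝ) / 2 ≤ expCopies n p F.coe} with hB
  have hBbdd : BddBelow B := ⟨0, fun p hp => hp.1⟩
  have hAne : A.Nonempty := by
    refine ⟨1, zero_le_one, le_rfl, fun F => ?_⟩
    rw [expCopies_eq, one_pow, mul_one]
    have h1 : 0 < H.copyCount F.coe := copyCount_pos.mpr F.coe_isContained
    have h2 := copyCount_le_top n hV H F.coe
    have h3 : (1 : ℝ) ≤ ((⊤ : SimpleGraph (Fin n)).copyCount F.coe : ℝ) := by
      exact_mod_cast h1.trans_le h2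
    linarith
  have hkey : ∀ p ∈ A, sInf B ≤ C * p := by
    intro p hp
    have hmem : min 1 (C * p) ∈ B := by
      refine ⟨le_min zero_le_one (mul_nonneg hCpos.le hp.1), min_le_left _ _, fun F => ?_⟩
      have h1 := tilde_of_hyp n H hV hΔ1 p hp.1 hp.2.1 hp.2.2 F
      have h2 : (0 : ℝ) ≤ (H.copyCount F.coe : ℝ) := Nat.cast_nonneg _
      linarith
    exact (csInf_le hBbdd hmem).trans (min_le_right _ _)
  have h1 : sInf B / C ≤ sInf A := by
    refine le_csInf hAne fun p hp => ?_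
    rw [div_le_iff₀ hCpos, mul_comm]
    exact hkey p hp
  have h2 : 0 ≤ sInf A := Real.sInf_nonneg fun p hp => hp.1
  have h3 : sInf B ≤ C * sInf A := by
    rw [div_le_iff₀ hCpos] at h1
    linarith
  show sInf B ≤ 161 * (H.maxDegree : ℝ) * sInf A
  calc sInf B ≤ C * sInf A := h3
    _ ≤ 161 * (H.maxDegree : ℝ) * sInf A := by
        apply mul_le_mul_of_nonneg_right _ h2
        rw [hC]
        exact mul_le_mul_of_nonneg_right eight_exp_cube_le hΔpos.le

end Vale.Agent.Results.P064.MaxDegree
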