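import Vale.Agent.Results.P064.ALogSquared
import Vale.Agent.Results.P064.BTildeLog
import Vale.Agent.Results.P064.CriticalMaxDegree
import Vale.Agent.Results.P064.MaxDegree

/-!
# P064: the four bounds in one statement, together with the attainment of the two minima
-/

namespace Vale.Agent.Results.P064.ALogSquaredPlus

open SimpleGraph Vale.Agent.Lib.P064

theorem continuous_gnpProb (n : ℕ) (G : SimpleGraph (Fin n)) :
    Continuous fun p : ℝ => gnpProb n p G := by
  unfold gnpProb
  fun_prop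

theorem continuous_expCopies (n : ℕ) {W : Type} (F : SimpleGraph W) :
    Continuous fun p : ℝ => expCopies n p F := by
  unfold expCopies
  exact continuous_finset_sum _ fun G _ => (continuous_gnpProb n G).mul continuous_const

theorem continuous_probContains (n : ℕ) {V : Type} (H : SimpleGraph V) :
    Continuous fun p : ℝ => probContains n p H := by
  unfold probContains
  refine continuous_finset_sum _ fun G _ => ?_
  split_ifs
  · exact continuous_gnpProb n G
  · exact continuous_const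

/-- the minimum that defines `p_E` is attained -/
theorem pE_mem (n : ℕ) {V : Type} [Fintype V] (H : SimpleGraph V) (hV : Fintype.card V ≤ n) :
    0 ≤ pE n H ∧ pE n H ≤ 1 ∧ ∀ F : H.Subgraph, 1 / 2 ≤ expCopies n (pE n H) F.coe := by
  have hcl : IsClosed {p : ℝ | 0 ≤ p ∧ p ≤ 1 ∧ ∀ F : H.Subgraph, 1 / 2 ≤ expCopies n p F.coe} := by
    have : {p : ℝ | 0 ≤ p ∧ p ≤ 1 ∧ ∀ F : H.Subgraph, 1 / 2 ≤ expCopies n p F.coe}
        = {p : ℝ | 0 ≤ p} ∩ ({p : ℝ | p ≤ 1} ∩
          ⋂ F : H.Subgraph, {p : ℝ | 1 / 2 ≤ expCopies n p F.coe}) := by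
      ext p
      simp
    rw [this]
    exact (isClosed_le continuous_const continuous_id).inter
      ((isClosed_le continuous_id continuous_const).inter
        (isClosed_iInter fun F => isClosed_le continuous_const (continuous_expCopies n F.coe)))
  exact hcl.csInf_mem (pE_set_nonempty n H hV) ⟨0, fun p hp => hp.1⟩

/-- the minimum that defines `p_c` is attained -/
theorem pC_mem (n : ℕ) {V : Type} [Fintype V] (H : SimpleGraph V) (hV : Fintype.card V ≤ n) :
    0 ≤ pC n H ∧ pC n H ≤ 1 ∧ 1 / 2 ≤ probContains n (pC n H) H := by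
  have hcl : IsClosed {p : ℝ | 0 ≤ p ∧ p ≤ 1 ∧ 1 / 2 ≤ probContains n p H} := by
    have : {p : ℝ | 0 ≤ p ∧ p ≤ 1 ∧ 1 / 2 ≤ probContains n p H}
        = {p : ℝ | 0 ≤ p} ∩ ({p : ℝ | p ≤ 1} ∩ {p : ℝ | 1 / 2 ≤ probContains n p H}) := by
      ext p
      simp
    rw [this]
    exact (isClosed_le continuous_const continuous_id).inter
      ((isClosed_le continuous_id continuous_const).inter
        (isClosed_le continuous_const (continuous_probContains n H)))
  have hne : {p : ℝ | 0 ≤ p ∧ p ≤ 1 ∧ 1 / 2 ≤ probContains n p H}.Nonempty := by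
    refine ⟨1, zero_le_one, le_rfl, ?_⟩
    rw [probContains_eq, PP.failProb_one _ (copyFamily_nonempty n H hV)]
    norm_num
  exact hcl.csInf_mem hne ⟨0, fun p hp => hp.1⟩

theorem result (n : ℕ) {V : Type} [Fintype V] [DecidableEq V] (H : SimpleGraph V)
    [DecidableRel H.Adj] (hV : Fintype.card V ≤ n) (hH : H ≠ ⊥) :
    (0 ≤ pE n H ∧ pE n H ≤ 1 ∧ ∀ F : H.Subgraph, 1 / 2 ≤ expCopies n (pE n H) F.coe) ∧
    (0 ≤ pC n H ∧ pC n H ≤ 1 ∧ 1 / 2 ≤ probContains n (pC n H) H) ∧
    pC n H ≤ 760000 * pE n H * Real.log n ^ 2 ∧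
    pC n H ≤ 7500 * (H.maxDegree : ℝ) * pE n H * Real.log n ∧
    pETilde n H ≤ 16400 * Real.log n * pE n H ∧
    pETilde n H ≤ 161 * (H.maxDegree : ℝ) * pE n H :=
  ⟨pE_mem n H hV, pC_mem n H hV, ALogSquared.result n H hV hH,
    CriticalMaxDegree.result n H hV hH, BTildeLog.result n H hV hH, MaxDegree.result n H hV hH⟩

end Vale.Agent.Results.P064.ALogSquaredPlus
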